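import Vale.Agent.Lib.P048.Claw

namespace Vale.Agent.Results.P048.ClawFree

open Vale.Agent.Lib.P048

/-- The Erdős–Faudree–Rousseau–Schelp bound for claw-free host graphs: if `5 ≤ m`, `n ≤ m` and
`G` is a finite graph in which no vertex has three pairwise non-adjacent neighbours, then
`(m - 1) * (n - 1) + 1` vertices force a cycle of length exactly `m` or `n` independent vertices. -/
theorem result (m n : ℕ) (hm : 5 ≤ m) (hn : n ≤ m) (V : Type*) [Fintype V] (G : SimpleGraph V)
    (hclaw : ∀ v, G.IndepSetFreeOn (G.neighborSet v) 3)
    (hcard : (m - 1) * (n - 1) + 1 ≤ Fintype.card V) :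
    (∃ (v : V) (c : G.Walk v v), c.IsCycle ∧ c.length = m) ∨
      ∃ s : Finset V, G.IsNIndepSet n s := by
  classical
  have h3 : Claw3 G := by
    intro v a b c hva hvb hvc hab hac hbc
    by_contra hcon
    push Not at hcon
    refine hclaw v (t := {a, b, c}) ?_ ⟨?_, ?_⟩
    · intro x hx
      simp only [Finset.coe_insert, Finset.coe_singleton, Set.mem_insert_iff,
        Set.mem_singleton_iff] at hx
      rcases hx with rfl | rfl | rfl
      · exact hva
      · exact hvb
      · exact hvc
    · intro x hx y hy hxy
      simp only [Finset.coe_insert, Finset.coe_singleton, Set.mem_insert_iff,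
        Set.mem_singleton_iff] at hx hy
      rcases hx with rfl | rfl | rfl <;> rcases hy with rfl | rfl | rfl <;>
        first
          | exact absurd rfl hxy
          | exact hcon.1
          | exact hcon.2.1
          | exact hcon.2.2
          | exact fun h => hcon.1 h.symm
          | exact fun h => hcon.2.1 h.symm
          | exact fun h => hcon.2.2 h.symm
    · rw [Finset.card_insert_of_notMem (by simp [hab, hac]),
        Finset.card_insert_of_notMem (by simp [hbc]), Finset.card_singleton]
  rcases main m hm n hn V G h3 hcard with h | h
  · exact Or.inl (h.exists_walk (by omega))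
  · exact Or.inr h

end Vale.Agent.Results.P048.ClawFree
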